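import Mathlib

namespace Vale.Agent.Lib.P162

open Finset

section count

variable {α : Type} [Fintype α] [DecidableEq α]

/-- preimage of `L` under the permutation `g` -/
def pre (L : Finset α) (g : Equiv.Perm α) : Finset α := univ.filter (fun x => g x ∈ L)

theorem mem_pre (L : Finset α) (g : Equiv.Perm α) (x : α) : x ∈ pre L g ↔ g x ∈ L := by
  simp [pre]

theorem card_pre (L : Finset α) (g : Equiv.Perm α) : (pre L g).card = L.card := by
  have : pre L g = L.map g.symm.toEmbedding := by
    ext x
    simp only [pre, mem_filter, mem_univ, true_and, mem_map, Equiv.coe_toEmbedding]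
    constructor
    · intro hx
      exact ⟨g x, hx, by simp⟩
    · rintro ⟨y, hy, rfl⟩
      simpa using hy
  rw [this, card_map]

theorem exists_perm_of_card_eq (S L : Finset α) (h : S.card = L.card) :
    ∃ σ : Equiv.Perm α, ∀ x, σ x ∈ L ↔ x ∈ S := by
  have e : {x // x ∈ S} ≃ {x // x ∈ L} := Fintype.equivOfCardEq (by simpa using h)
  refine ⟨e.extendSubtype, fun x => ?_⟩
  by_cases hx : x ∈ S
  · exact ⟨fun _ => hx, fun _ => e.extendSubtype_mem x hx⟩
  · exact ⟨fun h' => absurd h' (e.extendSubtype_not_mem x hx), fun h' => absurd h' hx⟩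

theorem card_fiber (L S : Finset α) (h : S.card = L.card) :
    (univ.filter (fun g : Equiv.Perm α => pre L g = S)).card =
      (univ.filter (fun g : Equiv.Perm α => pre L g = L)).card := by
  obtain ⟨σ, hσ⟩ := exists_perm_of_card_eq S L h
  refine Finset.card_bij' (fun g _ => g * σ⁻¹) (fun g _ => g * σ) ?_ ?_ ?_ ?_
  · intro g hg
    simp only [mem_filter, mem_univ, true_and] at hg ⊢
    ext x
    have h1 : (g (σ⁻¹ x) ∈ L) ↔ σ⁻¹ x ∈ S := by
      rw [← hg, mem_pre]
    rw [mem_pre, Equiv.Perm.mul_apply, h1, ← hσ]
    simp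
  · intro g hg
    simp only [mem_filter, mem_univ, true_and] at hg ⊢
    ext x
    have h1 : (g (σ x) ∈ L) ↔ σ x ∈ L := by
      conv_rhs => rw [← hg]
      rw [mem_pre]
    rw [mem_pre, Equiv.Perm.mul_apply, h1, hσ]
  · intro g _; simp
  · intro g _; simp

theorem card_filter_pre (L : Finset α) (P : Finset α → Prop) [DecidablePred P] :
    (univ.filter (fun g : Equiv.Perm α => P (pre L g))).card =
      (univ.filter (fun g : Equiv.Perm α => pre L g = L)).card *
        ((powersetCard L.card univ).filter P).card := by
  rw [Finset.card_eq_sum_card_fiberwise (f := pre L)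
    (s := univ.filter (fun g : Equiv.Perm α => P (pre L g)))
    (t := (powersetCard L.card univ).filter P)]
  · have : ∀ S ∈ (powersetCard L.card (univ : Finset α)).filter P,
        ((univ.filter (fun g : Equiv.Perm α => P (pre L g))).filter (fun g => pre L g = S)).card =
          (univ.filter (fun g : Equiv.Perm α => pre L g = L)).card := by
      intro S hS
      simp only [mem_filter, mem_powersetCard, subset_univ, true_and] at hS
      rw [← card_fiber L S hS.1]
      congr 1
      ext g
      simp only [mem_filter, mem_univ, true_and]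
      constructor
      · exact fun h => h.2
      · intro h
        exact ⟨by rw [h]; exact hS.2, h⟩
    rw [Finset.sum_congr rfl this, Finset.sum_const, smul_eq_mul, mul_comm]
  · intro g hg
    simp only [coe_filter, mem_univ, true_and, Set.mem_ofPred_eq] at hg
    simp only [coe_filter, mem_powersetCard, subset_univ, true_and, Set.mem_ofPred_eq]
    exact ⟨card_pre L g, hg⟩

theorem card_split_le (E : Finset α) (k m : ℕ) :
    ((powersetCard k (univ : Finset α)).filter (fun S => (S ∩ E).card = m)).card ≤
      E.card.choose m * Eᶜ.card.choose (k - m) := by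
  rw [← card_powersetCard, ← card_powersetCard, ← card_product]
  refine Finset.card_le_card_of_injOn (fun S => (S ∩ E, S ∩ Eᶜ)) ?_ ?_
  · intro S hS
    simp only [coe_filter, mem_powersetCard, subset_univ, true_and, Set.mem_ofPred_eq] at hS
    simp only [coe_product, Set.mem_prod, mem_coe, mem_powersetCard]
    refine ⟨⟨inter_subset_right, hS.2⟩, inter_subset_right, ?_⟩
    have h1 : (S ∩ E).card + (S ∩ Eᶜ).card = S.card := by
      rw [← card_union_of_disjoint]
      · congr 1
        ext x
        simp only [mem_union, mem_inter, mem_compl]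
        tauto
      · rw [disjoint_left]
        intro x hx hx'
        simp only [mem_inter, mem_compl] at hx hx'
        exact hx'.2 hx.2
    omega
  · intro S _ T _ hST
    simp only [Prod.mk.injEq] at hST
    ext x
    have h1 : x ∈ S ∩ E ↔ x ∈ T ∩ E := by rw [hST.1]
    have h2 : x ∈ S ∩ Eᶜ ↔ x ∈ T ∩ Eᶜ := by rw [hST.2]
    simp only [mem_inter, mem_compl] at h1 h2
    tauto

theorem three_mul_choose_sq_le (m : ℕ) (hm : 1 ≤ m) :
    3 * ((2 * m).choose m * (2 * m).choose m) ≤ 2 * (4 * m).choose (2 * m) := by
  have hV := Nat.sum_range_choose_sq (2 * m)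
  have h4 : 2 * (2 * m) = 4 * m := by ring
  rw [h4] at hV
  obtain ⟨k, rfl⟩ : ∃ k, m = k + 1 := ⟨m - 1, by omega⟩
  set a := (2 * (k + 1)).choose (k + 1) with ha
  set b := (2 * (k + 1)).choose (k + 2) with hb
  set c := (2 * (k + 1)).choose k with hc
  have hbc : b = c := by
    rw [hb, hc]
    apply Nat.choose_symm_of_eq_add
    omega
  have hab : b * (k + 2) = a * (k + 1) := by
    have := Nat.choose_succ_right_eq (2 * (k + 1)) (k + 1)
    have h2 : 2 * (k + 1) - (k + 1) = k + 1 := by omega
    rw [h2] at this
    exact this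
  have hab2 : a ≤ 2 * b := by
    by_contra hlt
    push Not at hlt
    have h1 : 2 * b * (k + 1) < a * (k + 1) := Nat.mul_lt_mul_of_pos_right hlt (by omega)
    have h2 : b * (k + 2) ≤ 2 * b * (k + 1) := by nlinarith
    omega
  have hsub : ({k, k + 1, k + 2} : Finset ℕ) ⊆ Finset.range (2 * (k + 1) + 1) := by
    intro x hx
    simp only [mem_insert, mem_singleton] at hx
    simp only [mem_range]
    omega
  have hsum : c ^ 2 + (a ^ 2 + b ^ 2) ≤ (4 * (k + 1)).choose (2 * (k + 1)) := by
    rw [← hV]
    calc c ^ 2 + (a ^ 2 + b ^ 2) = ∑ i ∈ ({k, k + 1, k + 2} : Finset ℕ), ((2 * (k + 1)).choose i) ^ 2 := by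
          rw [Finset.sum_insert (by simp), Finset.sum_insert (by simp), Finset.sum_singleton]
      _ ≤ _ := Finset.sum_le_sum_of_subset hsub
  rw [← hbc] at hsum
  nlinarith

/-- At most two thirds of all permutations send exactly half of `E` into `L`. -/
theorem three_mul_card_balanced_le (E L : Finset α) (m : ℕ) (hm : 1 ≤ m)
    (hα : Fintype.card α = 4 * m) (hE : E.card = 2 * m) (hL : L.card = 2 * m) :
    3 * (univ.filter (fun g : Equiv.Perm α => (E.filter (fun x => g x ∈ L)).card = m)).card ≤
      2 * Fintype.card (Equiv.Perm α) := by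
  have h1 : (univ.filter (fun g : Equiv.Perm α => (E.filter (fun x => g x ∈ L)).card = m)) =
      univ.filter (fun g : Equiv.Perm α => (pre L g ∩ E).card = m) := by
    ext g
    simp only [mem_filter, mem_univ, true_and]
    have : E.filter (fun x => g x ∈ L) = pre L g ∩ E := by
      ext x
      simp only [pre, mem_filter, mem_inter, mem_univ, true_and]
      tauto
    rw [this]
  rw [h1, card_filter_pre L (fun S => (S ∩ E).card = m)]
  have h2 : Fintype.card (Equiv.Perm α) =
      (univ.filter (fun g : Equiv.Perm α => pre L g = L)).card * (4 * m).choose (2 * m) := by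
    have := card_filter_pre L (fun _ => True)
    simp only [filter_true] at this
    rw [card_powersetCard, card_univ, card_univ, hα, hL] at this
    exact this
  rw [h2]
  have h3 := card_split_le E L.card m
  have hEc : Eᶜ.card = 2 * m := by rw [card_compl, hα, hE]; omega
  rw [hE, hEc, hL] at h3
  have h4 : 2 * m - m = m := by omega
  rw [h4] at h3
  rw [hL]
  have h5 := three_mul_choose_sq_le m hm
  set c := (univ.filter (fun g : Equiv.Perm α => pre L g = L)).card
  set N := ((powersetCard (2 * m) (univ : Finset α)).filter (fun S => (S ∩ E).card = m)).card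
  calc 3 * (c * N) = c * (3 * N) := by ring
    _ ≤ c * (3 * ((2 * m).choose m * (2 * m).choose m)) := by
        apply Nat.mul_le_mul_left; omega
    _ ≤ c * (2 * (4 * m).choose (2 * m)) := Nat.mul_le_mul_left _ h5
    _ = 2 * (c * (4 * m).choose (2 * m)) := by ring

end count

end Vale.Agent.Lib.P162
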