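import Vale.Agent.Lib.P162.Basic
import Vale.Agent.Lib.P162.Count

namespace Vale.Agent.Lib.P162

open Finset

theorem shift_of_reach {d : ℕ} (hd : 1 ≤ d) {k : ℕ} {g : Equiv.Perm (Fin (2 * 2 ^ (d - 1)))}
    (hg : Reach (fun b => thorpLaw (2 ^ (d - 1)) b ≠ 0) k g) (hk : k ≤ d) (x : Fin (2 * 2 ^ (d - 1))) :
    (g x).val / 2 ^ k = x.val % 2 ^ (d - k) := by
  induction hg generalizing x with
  | zero =>
    have hx := x.isLt
    have h2 : 2 * 2 ^ (d - 1) = 2 ^ d := by
      rw [← pow_succ']; congr 1; omega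
    simp only [Equiv.Perm.coe_one, id_eq, pow_zero, Nat.div_one, Nat.sub_zero]
    rw [Nat.mod_eq_of_lt (by omega)]
  | @succ t a b ha hb ih =>
    obtain ⟨c, rfl⟩ := exists_coins_of_thorpLaw_ne_zero hb
    obtain ⟨β, hβ, hval⟩ := thorpFun_val (2 ^ (d - 1)) c x
    have h1 := ih (by omega) (thorpPerm (2 ^ (d - 1)) c x)
    have hval' : (thorpPerm (2 ^ (d - 1)) c x).val = 2 * (x.val % 2 ^ (d - 1)) + β := hval
    rw [Equiv.Perm.mul_apply, pow_succ, ← Nat.div_div_eq_div_mul, h1, hval']
    obtain ⟨e, he⟩ : ∃ e, d - t = e + 1 := ⟨d - t - 1, by omega⟩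
    have he' : d - (t + 1) = e := by omega
    rw [he, he', pow_succ', Nat.mod_mul_right_div_self]
    have h3 : (2 * (x.val % 2 ^ (d - 1)) + β) / 2 = x.val % 2 ^ (d - 1) := by omega
    rw [h3]
    apply Nat.mod_mod_of_dvd
    apply pow_dvd_pow
    omega

theorem card_low_even (m : ℕ) :
    (univ.filter (fun y : Fin (2 * (2 * m)) => y.val / (2 * m) = 0 ∧ y.val % 2 = 0)).card = m := by
  have : (univ.filter (fun y : Fin (2 * (2 * m)) => y.val / (2 * m) = 0 ∧ y.val % 2 = 0)) =
      (univ : Finset (Fin m)).image (fun i => (⟨2 * i.val, by omega⟩ : Fin (2 * (2 * m)))) := by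
    ext y
    simp only [mem_filter, mem_univ, true_and, mem_image]
    constructor
    · rintro ⟨h1, h2⟩
      have hy := y.isLt
      have hm : 0 < 2 * m := by omega
      have h3 : y.val < 2 * m := by
        rcases (Nat.div_eq_zero_iff).mp h1 with h | h
        · omega
        · exact h
      exact ⟨⟨y.val / 2, by omega⟩, Fin.ext (by simp only; omega)⟩
    · rintro ⟨i, rfl⟩
      have hi := i.isLt
      refine ⟨?_, by simp only; omega⟩
      apply Nat.div_eq_of_lt
      simp only
      omega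
  rw [this, card_image_of_injective]
  · simp
  · intro i j hij
    simp only [Fin.mk.injEq] at hij
    exact Fin.ext (by omega)

theorem card_even (m : ℕ) :
    (univ.filter (fun y : Fin (2 * (2 * m)) => y.val % 2 = 0)).card = 2 * m := by
  have : (univ.filter (fun y : Fin (2 * (2 * m)) => y.val % 2 = 0)) =
      (univ : Finset (Fin (2 * m))).image (fun i => (⟨2 * i.val, by omega⟩ : Fin (2 * (2 * m)))) := by
    ext y
    simp only [mem_filter, mem_univ, true_and, mem_image]
    constructor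
    · intro h2
      have hy := y.isLt
      exact ⟨⟨y.val / 2, by omega⟩, Fin.ext (by simp only; omega)⟩
    · rintro ⟨i, rfl⟩
      simp only
      omega
  rw [this, card_image_of_injective]
  · simp
  · intro i j hij
    simp only [Fin.mk.injEq] at hij
    exact Fin.ext (by omega)

theorem card_low (m : ℕ) :
    (univ.filter (fun y : Fin (2 * (2 * m)) => y.val < 2 * m)).card = 2 * m := by
  have : (univ.filter (fun y : Fin (2 * (2 * m)) => y.val < 2 * m)) =
      (univ : Finset (Fin (2 * m))).image (fun i => (⟨i.val, by omega⟩ : Fin (2 * (2 * m)))) := by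
    ext y
    simp only [mem_filter, mem_univ, true_and, mem_image]
    constructor
    · intro h2
      exact ⟨⟨y.val, h2⟩, Fin.ext rfl⟩
    · rintro ⟨i, rfl⟩
      exact i.isLt
  rw [this, card_image_of_injective]
  · simp
  · intro i j hij
    simp only [Fin.mk.injEq] at hij
    exact Fin.ext hij

/-- After `2 d - 2` Thorp shuffles of `2 ^ d` cards, exactly a quarter of the cards started in an
even position and sit in the top half. -/
theorem balanced_of_reach {d : ℕ} (hd : 2 ≤ d) {g : Equiv.Perm (Fin (2 * 2 ^ (d - 1)))}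
    (hg : Reach (fun b => thorpLaw (2 ^ (d - 1)) b ≠ 0) ((d - 1) + (d - 1)) g) :
    ((univ.filter (fun y : Fin (2 * 2 ^ (d - 1)) => y.val % 2 = 0)).filter
      (fun x => g x ∈ univ.filter (fun y : Fin (2 * 2 ^ (d - 1)) => y.val < 2 ^ (d - 1)))).card
      = 2 ^ (d - 2) := by
  obtain ⟨a, b, ha, hb, rfl⟩ := reach_add hg
  have hA := fun x => shift_of_reach (by omega) ha (by omega) x
  have hB := fun x => shift_of_reach (by omega) hb (by omega) x
  have h1 : d - (d - 1) = 1 := by omega
  rw [h1, pow_one] at hA hB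
  have hpow : (2 : ℕ) ^ (d - 1) = 2 * 2 ^ (d - 2) := by
    rw [← pow_succ']; congr 1; omega
  have hset : ((univ.filter (fun y : Fin (2 * 2 ^ (d - 1)) => y.val % 2 = 0)).filter
      (fun x => (a * b) x ∈ univ.filter (fun y : Fin (2 * 2 ^ (d - 1)) => y.val < 2 ^ (d - 1)))) =
      (univ.filter (fun y : Fin (2 * 2 ^ (d - 1)) =>
        y.val / 2 ^ (d - 1) = 0 ∧ y.val % 2 = 0)).map b.symm.toEmbedding := by
    ext x
    simp only [mem_filter, mem_univ, true_and, mem_map, Equiv.coe_toEmbedding,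
      Equiv.Perm.mul_apply]
    have hpos : 0 < 2 ^ (d - 1) := by positivity
    constructor
    · rintro ⟨hx1, hx2⟩
      refine ⟨b x, ⟨?_, ?_⟩, by simp⟩
      · rw [hB, hx1]
      · rw [← hA, Nat.div_eq_of_lt hx2]
    · rintro ⟨y, ⟨hy1, hy2⟩, rfl⟩
      refine ⟨?_, ?_⟩
      · have := hB (b.symm y)
        rw [Equiv.apply_symm_apply] at this
        rw [← this, hy1]
      · have := hA (b (b.symm y))
        rw [Equiv.apply_symm_apply] at this ⊢
        rw [hy2] at this
        rcases (Nat.div_eq_zero_iff).mp this with h | h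
        · omega
        · exact h
  rw [hset, card_map]
  have := card_low_even (2 ^ (d - 2))
  rw [← hpow] at this
  exact this

theorem tv_thorp_ge {d : ℕ} (hd : 2 ≤ d) {t : ℕ} (ht : t ≤ 2 * d - 2) :
    1 / 3 ≤ tv (convPow (thorpLaw (2 ^ (d - 1))) t) (unif (Equiv.Perm (Fin (2 * 2 ^ (d - 1))))) := by
  have hmono := tv_convPow_antitone (thorpLaw_nonneg (2 ^ (d - 1))) (sum_thorpLaw (2 ^ (d - 1))) ht
  refine le_trans ?_ hmono
  have hpow : (2 : ℕ) ^ (d - 1) = 2 * 2 ^ (d - 2) := by
    rw [← pow_succ']; congr 1; omega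
  set E := (univ.filter (fun y : Fin (2 * 2 ^ (d - 1)) => y.val % 2 = 0)) with hE
  set L := (univ.filter (fun y : Fin (2 * 2 ^ (d - 1)) => y.val < 2 ^ (d - 1))) with hL
  set B := (univ.filter (fun g : Equiv.Perm (Fin (2 * 2 ^ (d - 1))) =>
    (E.filter (fun x => g x ∈ L)).card = 2 ^ (d - 2))) with hB
  have hsupp : ∀ g, g ∉ B → convPow (thorpLaw (2 ^ (d - 1))) (2 * d - 2) g = 0 := by
    intro g hg
    by_contra hne
    apply hg
    have hr := reach_of_convPow_ne_zero hne
    have h2 : 2 * d - 2 = (d - 1) + (d - 1) := by omega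
    rw [h2] at hr
    simp only [hB, mem_filter, mem_univ, true_and]
    exact balanced_of_reach hd hr
  have h1 := tv_ge_of_support (sum_convPow (sum_thorpLaw (2 ^ (d - 1))) (2 * d - 2)) B hsupp
  refine le_trans ?_ h1
  have hcE : E.card = 2 * 2 ^ (d - 2) := by
    have := card_even (2 ^ (d - 2))
    rw [← hpow] at this
    rw [← hpow]
    exact this
  have hcL : L.card = 2 * 2 ^ (d - 2) := by
    have := card_low (2 ^ (d - 2))
    rw [← hpow] at this
    rw [← hpow]
    exact this
  have hcard : Fintype.card (Fin (2 * 2 ^ (d - 1))) = 4 * 2 ^ (d - 2) := by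
    rw [Fintype.card_fin, hpow]; ring
  have h3 := three_mul_card_balanced_le E L (2 ^ (d - 2)) Nat.one_le_two_pow hcard hcE hcL
  have h3' : 3 * (B.card : ℝ) ≤ 2 * (Fintype.card (Equiv.Perm (Fin (2 * 2 ^ (d - 1)))) : ℝ) := by
    exact_mod_cast h3
  have hpos : (0 : ℝ) < (Fintype.card (Equiv.Perm (Fin (2 * 2 ^ (d - 1)))) : ℝ) := by
    exact_mod_cast Fintype.card_pos
  have : (B.card : ℝ) / (Fintype.card (Equiv.Perm (Fin (2 * 2 ^ (d - 1)))) : ℝ) ≤ 2 / 3 := by
    rw [div_le_iff₀ hpos]
    linarith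
  linarith

end Vale.Agent.Lib.P162
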