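import Vale.Agent.Lib.P162.Defs

namespace Vale.Agent.Lib.P162

open Finset

section general

variable {G : Type} [Group G] [Fintype G] [DecidableEq G]

theorem conv_nonneg {μ ν : G → ℝ} (hμ : ∀ g, 0 ≤ μ g) (hν : ∀ g, 0 ≤ ν g) (g : G) :
    0 ≤ conv μ ν g :=
  Finset.sum_nonneg fun a _ => mul_nonneg (hμ a) (hν _)

theorem sum_conv (μ ν : G → ℝ) : ∑ g, conv μ ν g = (∑ g, μ g) * ∑ g, ν g := by
  unfold conv
  rw [Finset.sum_comm, Finset.sum_mul]
  refine Finset.sum_congr rfl fun a _ => ?_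
  rw [← Finset.mul_sum]
  congr 1
  exact Fintype.sum_equiv (Equiv.mulLeft a⁻¹) _ _ (fun g => rfl)

theorem convPow_nonneg {μ : G → ℝ} (hμ : ∀ g, 0 ≤ μ g) (t : ℕ) (g : G) : 0 ≤ convPow μ t g := by
  induction t generalizing g with
  | zero => simp only [convPow]; split <;> norm_num
  | succ t ih => exact conv_nonneg ih hμ g

theorem sum_convPow {μ : G → ℝ} (hμ : ∑ g, μ g = 1) (t : ℕ) : ∑ g, convPow μ t g = 1 := by
  induction t with
  | zero => simp [convPow]
  | succ t ih => simp only [convPow]; rw [sum_conv, ih, hμ, one_mul]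

theorem conv_unif {ν : G → ℝ} (hν : ∑ g, ν g = 1) : conv (unif G) ν = unif G := by
  funext g
  unfold conv unif
  rw [← Finset.mul_sum]
  have : ∑ a : G, ν (a⁻¹ * g) = ∑ a, ν a :=
    Fintype.sum_equiv ((Equiv.inv G).trans (Equiv.mulRight g)) _ _ (fun a => rfl)
  rw [this, hν, mul_one]

/-- Convolving with a probability law does not increase the distance to uniform. -/
theorem tv_conv_le {μ ν : G → ℝ} (hν0 : ∀ g, 0 ≤ ν g) (hν : ∑ g, ν g = 1) :
    tv (conv μ ν) (unif G) ≤ tv μ (unif G) := by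
  unfold tv
  apply mul_le_mul_of_nonneg_left _ (by norm_num)
  have h1 : ∀ g, conv μ ν g - unif G g = ∑ a, (μ a - unif G a) * ν (a⁻¹ * g) := by
    intro g
    have : unif G g = conv (unif G) ν g := by rw [conv_unif hν]
    rw [this]
    unfold conv
    rw [← Finset.sum_sub_distrib]
    exact Finset.sum_congr rfl fun a _ => by ring
  calc ∑ g, |conv μ ν g - unif G g| = ∑ g, |∑ a, (μ a - unif G a) * ν (a⁻¹ * g)| := by
        exact Finset.sum_congr rfl fun g _ => by rw [h1]
    _ ≤ ∑ g, ∑ a, |μ a - unif G a| * ν (a⁻¹ * g) := by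
        refine Finset.sum_le_sum fun g _ => ?_
        refine (Finset.abs_sum_le_sum_abs _ _).trans ?_
        refine Finset.sum_le_sum fun a _ => ?_
        rw [abs_mul, abs_of_nonneg (hν0 _)]
    _ = ∑ a, |μ a - unif G a| * ∑ g, ν (a⁻¹ * g) := by
        rw [Finset.sum_comm]
        exact Finset.sum_congr rfl fun a _ => by rw [Finset.mul_sum]
    _ = ∑ a, |μ a - unif G a| := by
        refine Finset.sum_congr rfl fun a _ => ?_
        have : ∑ g, ν (a⁻¹ * g) = ∑ g, ν g :=
          Fintype.sum_equiv (Equiv.mulLeft a⁻¹) _ _ (fun g => rfl)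
        rw [this, hν, mul_one]

theorem tv_convPow_antitone {μ : G → ℝ} (h0 : ∀ g, 0 ≤ μ g) (h1 : ∑ g, μ g = 1) {s t : ℕ}
    (hst : s ≤ t) : tv (convPow μ t) (unif G) ≤ tv (convPow μ s) (unif G) := by
  induction t, hst using Nat.le_induction with
  | base => exact le_rfl
  | succ t _ ih => exact (tv_conv_le h0 h1).trans ih

/-- If a probability law is carried by `B`, its distance to uniform is at least `1 - |B| / |G|`. -/
theorem tv_ge_of_support {μ : G → ℝ} (h1 : ∑ g, μ g = 1) (B : Finset G)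
    (hB : ∀ g, g ∉ B → μ g = 0) :
    1 - (B.card : ℝ) / (Fintype.card G : ℝ) ≤ tv μ (unif G) := by
  have hcard : (0 : ℝ) < (Fintype.card G : ℝ) := by exact_mod_cast Fintype.card_pos
  have hsplit : ∑ g, |μ g - unif G g| =
      ∑ g ∈ B, |μ g - unif G g| + ∑ g ∈ Bᶜ, |μ g - unif G g| := by
    rw [Finset.sum_add_sum_compl]
  have hμB : ∑ g ∈ B, μ g = 1 := by
    rw [← h1, ← Finset.sum_add_sum_compl B]
    have : ∑ g ∈ Bᶜ, μ g = 0 :=
      Finset.sum_eq_zero fun g hg => hB g (Finset.mem_compl.mp hg)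
    rw [this, add_zero]
  have hA : 1 - (B.card : ℝ) / (Fintype.card G : ℝ) ≤ ∑ g ∈ B, |μ g - unif G g| := by
    calc 1 - (B.card : ℝ) / (Fintype.card G : ℝ) = ∑ g ∈ B, (μ g - unif G g) := by
          rw [Finset.sum_sub_distrib, hμB]
          simp [unif, div_eq_mul_inv]
      _ ≤ ∑ g ∈ B, |μ g - unif G g| := Finset.sum_le_sum fun g _ => le_abs_self _
  have hC : 1 - (B.card : ℝ) / (Fintype.card G : ℝ) = ∑ g ∈ Bᶜ, |μ g - unif G g| := by
    have : ∀ g ∈ Bᶜ, |μ g - unif G g| = 1 / (Fintype.card G : ℝ) := by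
      intro g hg
      rw [hB g (Finset.mem_compl.mp hg)]
      simp [unif]
    rw [Finset.sum_congr rfl this, Finset.sum_const, Finset.card_compl, nsmul_eq_mul,
      Nat.cast_sub (Finset.card_le_univ B)]
    field_simp
  unfold tv
  rw [hsplit]
  linarith

/-- `Reach S t g`: `g` is a product of `t` elements of `S`. -/
inductive Reach (S : G → Prop) : ℕ → G → Prop
  | zero : Reach S 0 1
  | succ {t : ℕ} {a b : G} : Reach S t a → S b → Reach S (t + 1) (a * b)

theorem reach_of_convPow_ne_zero {μ : G → ℝ} {t : ℕ} {g : G} (h : convPow μ t g ≠ 0) :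
    Reach (fun b => μ b ≠ 0) t g := by
  induction t generalizing g with
  | zero =>
    simp only [convPow] at h
    by_cases hg : g = 1
    · subst hg; exact Reach.zero
    · simp [hg] at h
  | succ t ih =>
    simp only [convPow, conv] at h
    obtain ⟨a, _, ha⟩ := Finset.exists_ne_zero_of_sum_ne_zero h
    have h1 : convPow μ t a ≠ 0 := left_ne_zero_of_mul ha
    have h2 : μ (a⁻¹ * g) ≠ 0 := right_ne_zero_of_mul ha
    have := Reach.succ (S := fun b => μ b ≠ 0) (ih h1) h2
    simpa using this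

theorem reach_add {S : G → Prop} {s t : ℕ} {g : G} (h : Reach S (s + t) g) :
    ∃ a b, Reach S s a ∧ Reach S t b ∧ g = a * b := by
  induction t generalizing g with
  | zero => exact ⟨g, 1, h, Reach.zero, by simp⟩
  | succ t ih =>
    cases h with
    | succ ha hb =>
      obtain ⟨a1, a2, h1, h2, rfl⟩ := ih ha
      exact ⟨a1, a2 * _, h1, Reach.succ h2 hb, by rw [mul_assoc]⟩

end general

theorem thorpLaw_nonneg (h : ℕ) (g : Equiv.Perm (Fin (2 * h))) : 0 ≤ thorpLaw h g := by
  unfold thorpLaw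
  positivity

theorem sum_thorpLaw (h : ℕ) : ∑ g, thorpLaw h g = 1 := by
  unfold thorpLaw
  rw [← Finset.sum_div, ← Nat.cast_sum]
  have : ∑ g : Equiv.Perm (Fin (2 * h)), (univ.filter (fun c : Fin h → Bool => thorpPerm h c = g)).card
      = (univ : Finset (Fin h → Bool)).card :=
    (Finset.card_eq_sum_card_fiberwise (f := thorpPerm h) (s := univ) (t := univ)
      (fun c _ => Finset.mem_coe.mpr (Finset.mem_univ _))).symm
  rw [this]
  simp

theorem exists_coins_of_thorpLaw_ne_zero {h : ℕ} {g : Equiv.Perm (Fin (2 * h))}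
    (hg : thorpLaw h g ≠ 0) : ∃ c, thorpPerm h c = g := by
  unfold thorpLaw at hg
  have h1 : ((univ.filter (fun c : Fin h → Bool => thorpPerm h c = g)).card : ℝ) ≠ 0 := by
    intro h0
    rw [h0] at hg
    simp at hg
  have h2 : (univ.filter (fun c : Fin h → Bool => thorpPerm h c = g)).card ≠ 0 := by
    exact_mod_cast h1
  obtain ⟨c, hc⟩ := Finset.card_pos.mp (Nat.pos_of_ne_zero h2)
  exact ⟨c, (Finset.mem_filter.mp hc).2⟩

end Vale.Agent.Lib.P162
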