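import Vale.Agent.Lib.P162.Sharp

namespace Vale.Agent.Lib.P162

theorem cb_upper (m : ℕ) : ((Nat.centralBinom m : ℝ)) ^ 2 * (3 * (m : ℝ) + 1) ≤ 16 ^ m := by
  induction m with
  | zero => simp
  | succ m ih =>
    have h := Nat.succ_mul_centralBinom_succ m
    have hrec : ((m : ℝ) + 1) * (Nat.centralBinom (m + 1) : ℝ) =
        2 * (2 * (m : ℝ) + 1) * (Nat.centralBinom m : ℝ) := by exact_mod_cast h
    set x : ℝ := (m : ℝ) with hx
    have hx0 : 0 ≤ x := Nat.cast_nonneg m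
    set A : ℝ := (Nat.centralBinom m : ℝ)
    set B : ℝ := (Nat.centralBinom (m + 1) : ℝ)
    set P : ℝ := (16 : ℝ) ^ m
    have hP : 0 ≤ P := by positivity
    have key : B ^ 2 * (3 * (x + 1) + 1) * ((x + 1) ^ 2 * (3 * x + 1)) ≤
        16 * P * ((x + 1) ^ 2 * (3 * x + 1)) := by
      calc B ^ 2 * (3 * (x + 1) + 1) * ((x + 1) ^ 2 * (3 * x + 1))
          = ((x + 1) * B) ^ 2 * (3 * x + 4) * (3 * x + 1) := by ring
        _ = (2 * (2 * x + 1) * A) ^ 2 * (3 * x + 4) * (3 * x + 1) := by rw [hrec]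
        _ = 4 * (2 * x + 1) ^ 2 * (3 * x + 4) * (A ^ 2 * (3 * x + 1)) := by ring
        _ ≤ 4 * (2 * x + 1) ^ 2 * (3 * x + 4) * P :=
            mul_le_mul_of_nonneg_left ih (by positivity)
        _ ≤ 16 * (x + 1) ^ 2 * (3 * x + 1) * P :=
            mul_le_mul_of_nonneg_right (by nlinarith) hP
        _ = 16 * P * ((x + 1) ^ 2 * (3 * x + 1)) := by ring
    have := le_of_mul_le_mul_right key (by positivity)
    have hc : ((m + 1 : ℕ) : ℝ) = x + 1 := by push_cast; ring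
    have h16 : (16 : ℝ) ^ (m + 1) = 16 * P := by rw [pow_succ]; ring
    rw [hc, h16]
    exact this

theorem cb_lower (m : ℕ) (hm : 1 ≤ m) :
    (16 : ℝ) ^ m ≤ ((Nat.centralBinom m : ℝ)) ^ 2 * (4 * (m : ℝ)) := by
  induction m, hm using Nat.le_induction with
  | base => norm_num [Nat.centralBinom]
  | succ m hm ih =>
    have h := Nat.succ_mul_centralBinom_succ m
    have hrec : ((m : ℝ) + 1) * (Nat.centralBinom (m + 1) : ℝ) =
        2 * (2 * (m : ℝ) + 1) * (Nat.centralBinom m : ℝ) := by exact_mod_cast h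
    have hx0' : (1 : ℝ) ≤ (m : ℝ) := by exact_mod_cast hm
    set x : ℝ := (m : ℝ) with hx
    have hx0 : 1 ≤ x := hx0'
    set A : ℝ := (Nat.centralBinom m : ℝ)
    set B : ℝ := (Nat.centralBinom (m + 1) : ℝ)
    set P : ℝ := (16 : ℝ) ^ m
    have hP : 0 ≤ P := by positivity
    have key : 16 * P * ((x + 1) ^ 2 * x) ≤ B ^ 2 * (4 * (x + 1)) * ((x + 1) ^ 2 * x) := by
      calc 16 * P * ((x + 1) ^ 2 * x) = 16 * x * (x + 1) * (x + 1) * P := by ring
        _ ≤ 4 * (2 * x + 1) ^ 2 * (x + 1) * P :=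
            mul_le_mul_of_nonneg_right (by nlinarith) hP
        _ ≤ 4 * (2 * x + 1) ^ 2 * (x + 1) * (A ^ 2 * (4 * x)) :=
            mul_le_mul_of_nonneg_left ih (by positivity)
        _ = (2 * (2 * x + 1) * A) ^ 2 * (4 * (x + 1)) * x := by ring
        _ = ((x + 1) * B) ^ 2 * (4 * (x + 1)) * x := by rw [hrec]
        _ = B ^ 2 * (4 * (x + 1)) * ((x + 1) ^ 2 * x) := by ring
    have := le_of_mul_le_mul_right key (by positivity)
    have hc : ((m + 1 : ℕ) : ℝ) = x + 1 := by push_cast; ring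
    have h16 : (16 : ℝ) ^ (m + 1) = 16 * P := by rw [pow_succ]; ring
    rw [hc, h16]
    exact this

/-- `choose (2m) m ^ 2 / choose (4m) (2m) ≤ 1 / √m`. -/
theorem ratio_le (m : ℕ) (hm : 1 ≤ m) :
    (((2 * m).choose m : ℝ)) ^ 2 / ((4 * m).choose (2 * m) : ℝ) ≤ 1 / Real.sqrt (m : ℝ) := by
  have hU := cb_upper m
  have hL := cb_lower (2 * m) (by omega)
  have e1 : Nat.centralBinom m = (2 * m).choose m := rfl
  have e2 : Nat.centralBinom (2 * m) = (4 * m).choose (2 * m) := by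
    rw [Nat.centralBinom]; congr 1; ring
  rw [e1] at hU
  rw [e2] at hL
  have hb' : (0 : ℝ) < ((4 * m).choose (2 * m) : ℝ) := by
    have : 0 < (4 * m).choose (2 * m) := Nat.choose_pos (by omega)
    exact_mod_cast this
  have hx1' : (1 : ℝ) ≤ (m : ℝ) := by exact_mod_cast hm
  set a : ℝ := ((2 * m).choose m : ℝ)
  set b : ℝ := ((4 * m).choose (2 * m) : ℝ)
  have hb : 0 < b := hb'
  set x : ℝ := (m : ℝ) with hx
  have hx1 : 1 ≤ x := hx1'
  have hc : ((2 * m : ℕ) : ℝ) = 2 * x := by push_cast; ring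
  rw [hc] at hL
  have hs : 0 < Real.sqrt x := Real.sqrt_pos.mpr (by linarith)
  have hss : Real.sqrt x ^ 2 = x := Real.sq_sqrt (by linarith)
  have h16 : (16 : ℝ) ^ (2 * m) = ((16 : ℝ) ^ m) ^ 2 := by rw [mul_comm, pow_mul]
  have ha0 : 0 ≤ a ^ 2 * (3 * x + 1) := by positivity
  have h4 : (a ^ 2 * (3 * x + 1)) ^ 2 ≤ b ^ 2 * (4 * (2 * x)) := by
    calc (a ^ 2 * (3 * x + 1)) ^ 2 ≤ ((16 : ℝ) ^ m) ^ 2 := pow_le_pow_left₀ ha0 hU 2
      _ = (16 : ℝ) ^ (2 * m) := h16.symm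
      _ ≤ _ := hL
  have h5 : (a ^ 2 * Real.sqrt x) ^ 2 ≤ b ^ 2 := by
    have e : (a ^ 2 * Real.sqrt x) ^ 2 = a ^ 4 * x := by rw [mul_pow, hss]; ring
    rw [e]
    have h6 : a ^ 4 * x * (3 * x + 1) ^ 2 ≤ b ^ 2 * (3 * x + 1) ^ 2 := by
      calc a ^ 4 * x * (3 * x + 1) ^ 2 = (a ^ 2 * (3 * x + 1)) ^ 2 * x := by ring
        _ ≤ b ^ 2 * (4 * (2 * x)) * x := mul_le_mul_of_nonneg_right h4 (by linarith)
        _ = b ^ 2 * (8 * x ^ 2) := by ring
        _ ≤ b ^ 2 * (3 * x + 1) ^ 2 := mul_le_mul_of_nonneg_left (by nlinarith) (by positivity)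
    exact le_of_mul_le_mul_right h6 (by positivity)
  have h7 : a ^ 2 * Real.sqrt x ≤ b := by
    by_contra hlt
    push Not at hlt
    have := pow_lt_pow_left₀ hlt hb.le two_ne_zero
    linarith
  rw [div_le_div_iff₀ hb hs]
  linarith

end Vale.Agent.Lib.P162
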