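import Mathlib

namespace Vale.Agent.Lib.P162

open Finset

/-- New position (0-indexed) of the card in position `x` after one Thorp shuffle of `2 * h` cards
with coins `c`: the cards in positions `i` and `h + i` go to positions `2 * i` and `2 * i + 1`,
the top-half card first exactly when `c i` is true. -/
def thorpFun (h : ℕ) (c : Fin h → Bool) (x : Fin (2 * h)) : Fin (2 * h) :=
  if hx : x.val < h then
    ⟨2 * x.val + (if c ⟨x.val, hx⟩ then 0 else 1), by split <;> omega⟩
  else
    ⟨2 * (x.val - h) + (if c ⟨x.val - h, by omega⟩ then 1 else 0), by split <;> omega⟩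

theorem thorpFun_val (h : ℕ) (c : Fin h → Bool) (x : Fin (2 * h)) :
    ∃ b : ℕ, b < 2 ∧ (thorpFun h c x).val = 2 * (x.val % h) + b := by
  unfold thorpFun
  split
  · rename_i hx
    refine ⟨if c ⟨x.val, hx⟩ then 0 else 1, by split <;> omega, ?_⟩
    simp [Nat.mod_eq_of_lt hx]
  · rename_i hx
    have h1 : x.val % h = x.val - h := by
      have hx2 : x.val < 2 * h := x.isLt
      rw [Nat.mod_eq_sub_mod (by omega), Nat.mod_eq_of_lt (by omega)]
    refine ⟨if c ⟨x.val - h, by omega⟩ then 1 else 0, by split <;> omega, ?_⟩
    simp [h1]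

theorem thorpFun_injective (h : ℕ) (c : Fin h → Bool) : Function.Injective (thorpFun h c) := by
  intro x y hxy
  have hv : (thorpFun h c x).val = (thorpFun h c y).val := by rw [hxy]
  unfold thorpFun at hv
  have hx2 := x.isLt
  have hy2 := y.isLt
  apply Fin.ext
  by_cases hx : x.val < h <;> by_cases hy : y.val < h
  · simp only [hx, hy, dif_pos] at hv
    split at hv <;> split at hv <;> omega
  · simp only [hx, hy, dif_pos, dif_neg, not_false_eq_true] at hv
    have hidx : x.val = y.val - h := by split at hv <;> split at hv <;> omega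
    have hc : c ⟨x.val, hx⟩ = c ⟨y.val - h, by omega⟩ := by
      congr 1
      exact Fin.ext hidx
    rw [hc] at hv
    split at hv <;> omega
  · simp only [hx, hy, dif_pos, dif_neg, not_false_eq_true] at hv
    have hidx : y.val = x.val - h := by split at hv <;> split at hv <;> omega
    have hc : c ⟨y.val, hy⟩ = c ⟨x.val - h, by omega⟩ := by
      congr 1
      exact Fin.ext hidx
    rw [hc] at hv
    split at hv <;> omega
  · simp only [hx, hy, dif_neg, not_false_eq_true] at hv
    split at hv <;> split at hv <;> omega

theorem thorpFun_bijective (h : ℕ) (c : Fin h → Bool) : Function.Bijective (thorpFun h c) :=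
  Finite.injective_iff_bijective.mp (thorpFun_injective h c)

/-- The permutation of positions effected by one Thorp shuffle with coins `c`. -/
noncomputable def thorpPerm (h : ℕ) (c : Fin h → Bool) : Equiv.Perm (Fin (2 * h)) :=
  Equiv.ofBijective (thorpFun h c) (thorpFun_bijective h c)

/-- The law `q_n`, `n = 2 * h`, of one Thorp shuffle: all `2 ^ h` coin vectors equally likely. -/
noncomputable def thorpLaw (h : ℕ) : Equiv.Perm (Fin (2 * h)) → ℝ := fun g =>
  ((univ.filter (fun c : Fin h → Bool => thorpPerm h c = g)).card : ℝ) / 2 ^ h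

/-- Convolution of two real functions on a finite group. -/
noncomputable def conv {G : Type} [Group G] [Fintype G] (μ ν : G → ℝ) : G → ℝ := fun g =>
  ∑ a, μ a * ν (a⁻¹ * g)

/-- `t`-fold convolution power (the point mass at the identity for `t = 0`). -/
noncomputable def convPow {G : Type} [Group G] [Fintype G] [DecidableEq G] (μ : G → ℝ) :
    ℕ → G → ℝ
  | 0 => fun g => if g = 1 then 1 else 0
  | t + 1 => conv (convPow μ t) μ

/-- The uniform law on a finite type. -/
noncomputable def unif (G : Type) [Fintype G] : G → ℝ := fun _ => 1 / (Fintype.card G : ℝ)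

/-- Total variation distance. -/
noncomputable def tv {G : Type} [Fintype G] (μ ν : G → ℝ) : ℝ := (1 / 2) * ∑ g, |μ g - ν g|

end Vale.Agent.Lib.P162
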