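import Vale.Agent.Lib.P162.Balance

namespace Vale.Agent.Lib.P162

open Finset

section count

variable {α : Type} [Fintype α] [DecidableEq α]

/-- The proportion of permutations sending exactly half of `E` into `L` is at most
`choose (2m) m ^ 2 / choose (4m) (2m)`. -/
theorem card_balanced_mul_le (E L : Finset α) (m : ℕ)
    (hα : Fintype.card α = 4 * m) (hE : E.card = 2 * m) (hL : L.card = 2 * m) :
    (univ.filter (fun g : Equiv.Perm α => (E.filter (fun x => g x ∈ L)).card = m)).card *
        (4 * m).choose (2 * m) ≤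
      ((2 * m).choose m * (2 * m).choose m) * Fintype.card (Equiv.Perm α) := by
  have h1 : (univ.filter (fun g : Equiv.Perm α => (E.filter (fun x => g x ∈ L)).card = m)) =
      univ.filter (fun g : Equiv.Perm α => (pre L g ∩ E).card = m) := by
    ext g
    simp only [mem_filter, mem_univ, true_and]
    have : E.filter (fun x => g x ∈ L) = pre L g ∩ E := by
      ext x
      simp only [pre, mem_filter, mem_inter, mem_univ, true_and]
      tauto
    rw [this]
  rw [h1, card_filter_pre L (fun S => (S ∩ E).card = m)]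
  have h2 : Fintype.card (Equiv.Perm α) =
      (univ.filter (fun g : Equiv.Perm α => pre L g = L)).card * (4 * m).choose (2 * m) := by
    have := card_filter_pre L (fun _ => True)
    simp only [filter_true] at this
    rw [card_powersetCard, card_univ, card_univ, hα, hL] at this
    exact this
  rw [h2]
  have h3 := card_split_le E L.card m
  have hEc : Eᶜ.card = 2 * m := by rw [card_compl, hα, hE]; omega
  rw [hE, hEc, hL] at h3
  have h4 : 2 * m - m = m := by omega
  rw [h4] at h3
  rw [hL]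
  set c := (univ.filter (fun g : Equiv.Perm α => pre L g = L)).card
  set N := ((powersetCard (2 * m) (univ : Finset α)).filter (fun S => (S ∩ E).card = m)).card
  calc c * N * (4 * m).choose (2 * m) = (c * (4 * m).choose (2 * m)) * N := by ring
    _ ≤ (c * (4 * m).choose (2 * m)) * ((2 * m).choose m * (2 * m).choose m) :=
        Nat.mul_le_mul_left _ h3
    _ = ((2 * m).choose m * (2 * m).choose m) * (c * (4 * m).choose (2 * m)) := by ring

end count

theorem tv_thorp_ge_sharp {d : ℕ} (hd : 2 ≤ d) {t : ℕ} (ht : t ≤ 2 * d - 2) :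
    1 - (((2 * 2 ^ (d - 2)).choose (2 ^ (d - 2)) : ℝ)) ^ 2 /
        ((4 * 2 ^ (d - 2)).choose (2 * 2 ^ (d - 2)) : ℝ) ≤
      tv (convPow (thorpLaw (2 ^ (d - 1))) t) (unif (Equiv.Perm (Fin (2 * 2 ^ (d - 1))))) := by
  have hmono := tv_convPow_antitone (thorpLaw_nonneg (2 ^ (d - 1))) (sum_thorpLaw (2 ^ (d - 1))) ht
  refine le_trans ?_ hmono
  have hpow : (2 : ℕ) ^ (d - 1) = 2 * 2 ^ (d - 2) := by
    rw [← pow_succ']; congr 1; omega
  set E := (univ.filter (fun y : Fin (2 * 2 ^ (d - 1)) => y.val % 2 = 0)) with hE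
  set L := (univ.filter (fun y : Fin (2 * 2 ^ (d - 1)) => y.val < 2 ^ (d - 1))) with hL
  set B := (univ.filter (fun g : Equiv.Perm (Fin (2 * 2 ^ (d - 1))) =>
    (E.filter (fun x => g x ∈ L)).card = 2 ^ (d - 2))) with hB
  have hsupp : ∀ g, g ∉ B → convPow (thorpLaw (2 ^ (d - 1))) (2 * d - 2) g = 0 := by
    intro g hg
    by_contra hne
    apply hg
    have hr := reach_of_convPow_ne_zero hne
    have h2 : 2 * d - 2 = (d - 1) + (d - 1) := by omega
    rw [h2] at hr
    simp only [hB, mem_filter, mem_univ, true_and]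
    exact balanced_of_reach hd hr
  have h1 := tv_ge_of_support (sum_convPow (sum_thorpLaw (2 ^ (d - 1))) (2 * d - 2)) B hsupp
  refine le_trans ?_ h1
  have hcE : E.card = 2 * 2 ^ (d - 2) := by
    have := card_even (2 ^ (d - 2))
    rw [← hpow] at this
    rw [← hpow]
    exact this
  have hcL : L.card = 2 * 2 ^ (d - 2) := by
    have := card_low (2 ^ (d - 2))
    rw [← hpow] at this
    rw [← hpow]
    exact this
  have hcard : Fintype.card (Fin (2 * 2 ^ (d - 1))) = 4 * 2 ^ (d - 2) := by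
    rw [Fintype.card_fin, hpow]; ring
  have h3 := card_balanced_mul_le E L (2 ^ (d - 2)) hcard hcE hcL
  have h3' : (B.card : ℝ) * ((4 * 2 ^ (d - 2)).choose (2 * 2 ^ (d - 2)) : ℝ) ≤
      (((2 * 2 ^ (d - 2)).choose (2 ^ (d - 2)) : ℝ)) ^ 2 *
        (Fintype.card (Equiv.Perm (Fin (2 * 2 ^ (d - 1)))) : ℝ) := by
    rw [sq]
    exact_mod_cast h3
  have hpos : (0 : ℝ) < (Fintype.card (Equiv.Perm (Fin (2 * 2 ^ (d - 1)))) : ℝ) := by
    exact_mod_cast Fintype.card_pos
  have hpos2 : (0 : ℝ) < ((4 * 2 ^ (d - 2)).choose (2 * 2 ^ (d - 2)) : ℝ) := by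
    exact_mod_cast Nat.choose_pos (by omega)
  have : (B.card : ℝ) / (Fintype.card (Equiv.Perm (Fin (2 * 2 ^ (d - 1)))) : ℝ) ≤
      (((2 * 2 ^ (d - 2)).choose (2 ^ (d - 2)) : ℝ)) ^ 2 /
        ((4 * 2 ^ (d - 2)).choose (2 * 2 ^ (d - 2)) : ℝ) := by
    rw [div_le_div_iff₀ hpos hpos2]
    exact h3'
  linarith

end Vale.Agent.Lib.P162
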